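import Mathlib
import Vale.Agent.P154q4.D4.Params

/-!
Approximation of the powers of `(1+u)⁻¹` on `[-Lam, 3 Lam]`: generated Bernstein certificates on
subintervals with exact rationals.
-/

namespace Vale.Agent.P154q4.D4

private lemma bern5 (c0 c1 c2 c3 c4 c5 s t : ℝ) (h0 : 0 ≤ c0) (h1 : 0 ≤ c1) (h2 : 0 ≤ c2) (h3 : 0 ≤ c3) (h4 : 0 ≤ c4) (h5 : 0 ≤ c5) (hs : 0 ≤ s) (ht : 0 ≤ t) :
    0 ≤ c0 * t ^ 5 + c1 * s ^ 1 * t ^ 4 + c2 * s ^ 2 * t ^ 3 + c3 * s ^ 3 * t ^ 2 + c4 * s ^ 4 * t ^ 1 + c5 * s ^ 5 := by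
  positivity

private lemma bern6 (c0 c1 c2 c3 c4 c5 c6 s t : ℝ) (h0 : 0 ≤ c0) (h1 : 0 ≤ c1) (h2 : 0 ≤ c2) (h3 : 0 ≤ c3) (h4 : 0 ≤ c4) (h5 : 0 ≤ c5) (h6 : 0 ≤ c6) (hs : 0 ≤ s) (ht : 0 ≤ t) :
    0 ≤ c0 * t ^ 6 + c1 * s ^ 1 * t ^ 5 + c2 * s ^ 2 * t ^ 4 + c3 * s ^ 3 * t ^ 3 + c4 * s ^ 4 * t ^ 2 + c5 * s ^ 5 * t ^ 1 + c6 * s ^ 6 := by
  positivity

private theorem a1p_nonneg (u : ℝ) (hl : -(1/2) ≤ u) (hr : u ≤ 3/2) :
    0 ≤ (87/5000) * (1 + u) + (1 - (1 + u) * S1 u) := by
  have e : (87/5000) * (1 + u) + (1 - (1 + u) * S1 u) =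
      (346301/10240000) * u ^ 0 + (310963/5120000) * u ^ 1 + (-4449/16384) * u ^ 2 + (-1527/8192) * u ^ 3 + (1547/2048) * u ^ 4 + (-1461/4096) * u ^ 5 := by
    simp only [S1]; ring
  rw [e]
  by_cases hc0 : u ≤ (-3/8)
  · have hs : 0 ≤ u - (-1/2) := by linarith
    have ht : 0 ≤ (-3/8) - u := by linarith
    have b := bern5 (1410829/2500) (16064909/10000) (31903577/20000) (12484393/20000) (51446469/640000) (4520099/512000) (u - (-1/2)) ((-3/8) - u) (by norm_num) (by norm_num) (by norm_num) (by norm_num) (by norm_num) (by norm_num) hs ht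
    have key : (346301/10240000) * u ^ 0 + (310963/5120000) * u ^ 1 + (-4449/16384) * u ^ 2 + (-1527/8192) * u ^ 3 + (1547/2048) * u ^ 4 + (-1461/4096) * u ^ 5 =
        (1410829/2500) * ((-3/8) - u) ^ 5 + (16064909/10000) * (u - (-1/2)) ^ 1 * ((-3/8) - u) ^ 4 + (31903577/20000) * (u - (-1/2)) ^ 2 * ((-3/8) - u) ^ 3 + (12484393/20000) * (u - (-1/2)) ^ 3 * ((-3/8) - u) ^ 2 + (51446469/640000) * (u - (-1/2)) ^ 4 * ((-3/8) - u) ^ 1 + (4520099/512000) * (u - (-1/2)) ^ 5 := by ring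
    rw [key]; exact b
  by_cases hc1 : u ≤ (-1/4)
  · have hs : 0 ≤ u - (-3/8) := by linarith [not_le.1 hc0]
    have ht : 0 ≤ (-1/4) - u := by linarith
    have b := bern5 (4520099/512000) (10109537/1280000) (106966887/320000) (148345909/160000) (136056531/160000) (20642917/80000) (u - (-3/8)) ((-1/4) - u) (by norm_num) (by norm_num) (by norm_num) (by norm_num) (by norm_num) (by norm_num) hs ht
    have key : (346301/10240000) * u ^ 0 + (310963/5120000) * u ^ 1 + (-4449/16384) * u ^ 2 + (-1527/8192) * u ^ 3 + (1547/2048) * u ^ 4 + (-1461/4096) * u ^ 5 =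
        (4520099/512000) * ((-1/4) - u) ^ 5 + (10109537/1280000) * (u - (-3/8)) ^ 1 * ((-1/4) - u) ^ 4 + (106966887/320000) * (u - (-3/8)) ^ 2 * ((-1/4) - u) ^ 3 + (148345909/160000) * (u - (-3/8)) ^ 3 * ((-1/4) - u) ^ 2 + (136056531/160000) * (u - (-3/8)) ^ 4 * ((-1/4) - u) ^ 1 + (20642917/80000) * (u - (-3/8)) ^ 5 := by ring
    rw [key]; exact b
  by_cases hc2 : u ≤ (0)
  · have hs : 0 ≤ u - (-1/4) := by linarith [not_le.1 hc1]
    have ht : 0 ≤ (0) - u := by linarith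
    have b := bern5 (20642917/2560000) (21698403/320000) (65234497/320000) (42676719/160000) (3152047/20000) (346301/10000) (u - (-1/4)) ((0) - u) (by norm_num) (by norm_num) (by norm_num) (by norm_num) (by norm_num) (by norm_num) hs ht
    have key : (346301/10240000) * u ^ 0 + (310963/5120000) * u ^ 1 + (-4449/16384) * u ^ 2 + (-1527/8192) * u ^ 3 + (1547/2048) * u ^ 4 + (-1461/4096) * u ^ 5 =
        (20642917/2560000) * ((0) - u) ^ 5 + (21698403/320000) * (u - (-1/4)) ^ 1 * ((0) - u) ^ 4 + (65234497/320000) * (u - (-1/4)) ^ 2 * ((0) - u) ^ 3 + (42676719/160000) * (u - (-1/4)) ^ 3 * ((0) - u) ^ 2 + (3152047/20000) * (u - (-1/4)) ^ 4 * ((0) - u) ^ 1 + (346301/10000) * (u - (-1/4)) ^ 5 := by ring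
    rw [key]; exact b
  by_cases hc3 : u ≤ (1/2)
  · have hs : 0 ≤ u - (0) := by linarith [not_le.1 hc2]
    have ht : 0 ≤ (1/2) - u := by linarith
    have b := bern5 (346301/320000) (510617/80000) (16046823/1280000) (6009451/640000) (3584553/1280000) (742487/2560000) (u - (0)) ((1/2) - u) (by norm_num) (by norm_num) (by norm_num) (by norm_num) (by norm_num) (by norm_num) hs ht
    have key : (346301/10240000) * u ^ 0 + (310963/5120000) * u ^ 1 + (-4449/16384) * u ^ 2 + (-1527/8192) * u ^ 3 + (1547/2048) * u ^ 4 + (-1461/4096) * u ^ 5 =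
        (346301/320000) * ((1/2) - u) ^ 5 + (510617/80000) * (u - (0)) ^ 1 * ((1/2) - u) ^ 4 + (16046823/1280000) * (u - (0)) ^ 2 * ((1/2) - u) ^ 3 + (6009451/640000) * (u - (0)) ^ 3 * ((1/2) - u) ^ 2 + (3584553/1280000) * (u - (0)) ^ 4 * ((1/2) - u) ^ 1 + (742487/2560000) * (u - (0)) ^ 5 := by ring
    rw [key]; exact b
  by_cases hc4 : u ≤ (5/8)
  · have hs : 0 ≤ u - (1/2) := by linarith [not_le.1 hc3]
    have ht : 0 ≤ (5/8) - u := by linarith
    have b := bern5 (742487/2500) (11393069/10000) (33138717/20000) (22652033/20000) (233957459/640000) (120893287/2560000) (u - (1/2)) ((5/8) - u) (by norm_num) (by norm_num) (by norm_num) (by norm_num) (by norm_num) (by norm_num) hs ht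
    have key : (346301/10240000) * u ^ 0 + (310963/5120000) * u ^ 1 + (-4449/16384) * u ^ 2 + (-1527/8192) * u ^ 3 + (1547/2048) * u ^ 4 + (-1461/4096) * u ^ 5 =
        (742487/2500) * ((5/8) - u) ^ 5 + (11393069/10000) * (u - (1/2)) ^ 1 * ((5/8) - u) ^ 4 + (33138717/20000) * (u - (1/2)) ^ 2 * ((5/8) - u) ^ 3 + (22652033/20000) * (u - (1/2)) ^ 3 * ((5/8) - u) ^ 2 + (233957459/640000) * (u - (1/2)) ^ 4 * ((5/8) - u) ^ 1 + (120893287/2560000) * (u - (1/2)) ^ 5 := by ring
    rw [key]; exact b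
  by_cases hc5 : u ≤ (3/4)
  · have hs : 0 ≤ u - (5/8) := by linarith [not_le.1 hc4]
    have ht : 0 ≤ (3/4) - u := by linarith
    have b := bern5 (120893287/2560000) (136551517/1280000) (31069127/320000) (22909529/160000) (29252091/160000) (6153473/80000) (u - (5/8)) ((3/4) - u) (by norm_num) (by norm_num) (by norm_num) (by norm_num) (by norm_num) (by norm_num) hs ht
    have key : (346301/10240000) * u ^ 0 + (310963/5120000) * u ^ 1 + (-4449/16384) * u ^ 2 + (-1527/8192) * u ^ 3 + (1547/2048) * u ^ 4 + (-1461/4096) * u ^ 5 =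
        (120893287/2560000) * ((3/4) - u) ^ 5 + (136551517/1280000) * (u - (5/8)) ^ 1 * ((3/4) - u) ^ 4 + (31069127/320000) * (u - (5/8)) ^ 2 * ((3/4) - u) ^ 3 + (22909529/160000) * (u - (5/8)) ^ 3 * ((3/4) - u) ^ 2 + (29252091/160000) * (u - (5/8)) ^ 4 * ((3/4) - u) ^ 1 + (6153473/80000) * (u - (5/8)) ^ 5 := by ring
    rw [key]; exact b
  by_cases hc6 : u ≤ (1)
  · have hs : 0 ≤ u - (3/4) := by linarith [not_le.1 hc5]
    have ht : 0 ≤ (1) - u := by linarith
    have b := bern5 (6153473/2560000) (15762501/640000) (31075817/320000) (27003629/160000) (2607557/20000) (45169/1250) (u - (3/4)) ((1) - u) (by norm_num) (by norm_num) (by norm_num) (by norm_num) (by norm_num) (by norm_num) hs ht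
    have key : (346301/10240000) * u ^ 0 + (310963/5120000) * u ^ 1 + (-4449/16384) * u ^ 2 + (-1527/8192) * u ^ 3 + (1547/2048) * u ^ 4 + (-1461/4096) * u ^ 5 =
        (6153473/2560000) * ((1) - u) ^ 5 + (15762501/640000) * (u - (3/4)) ^ 1 * ((1) - u) ^ 4 + (31075817/320000) * (u - (3/4)) ^ 2 * ((1) - u) ^ 3 + (27003629/160000) * (u - (3/4)) ^ 3 * ((1) - u) ^ 2 + (2607557/20000) * (u - (3/4)) ^ 4 * ((1) - u) ^ 1 + (45169/1250) * (u - (3/4)) ^ 5 := by ring
    rw [key]; exact b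
  have hs : 0 ≤ u - (1) := by linarith [not_le.1 hc6]
  have ht : 0 ≤ (3/2) - u := by linarith
  have b := bern5 (45169/40000) (2812723/320000) (31927613/1280000) (9746173/320000) (8665599/640000) (4829/512000) (u - (1)) ((3/2) - u) (by norm_num) (by norm_num) (by norm_num) (by norm_num) (by norm_num) (by norm_num) hs ht
  have key : (346301/10240000) * u ^ 0 + (310963/5120000) * u ^ 1 + (-4449/16384) * u ^ 2 + (-1527/8192) * u ^ 3 + (1547/2048) * u ^ 4 + (-1461/4096) * u ^ 5 =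
      (45169/40000) * ((3/2) - u) ^ 5 + (2812723/320000) * (u - (1)) ^ 1 * ((3/2) - u) ^ 4 + (31927613/1280000) * (u - (1)) ^ 2 * ((3/2) - u) ^ 3 + (9746173/320000) * (u - (1)) ^ 3 * ((3/2) - u) ^ 2 + (8665599/640000) * (u - (1)) ^ 4 * ((3/2) - u) ^ 1 + (4829/512000) * (u - (1)) ^ 5 := by ring
  rw [key]; exact b

private theorem a1m_nonneg (u : ℝ) (hl : -(1/2) ≤ u) (hr : u ≤ 3/2) :
    0 ≤ (87/5000) * (1 + u) - (1 - (1 + u) * S1 u) := by
  have e : (87/5000) * (1 + u) - (1 - (1 + u) * S1 u) =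
      (10051/10240000) * u ^ 0 + (-132787/5120000) * u ^ 1 + (4449/16384) * u ^ 2 + (1527/8192) * u ^ 3 + (-1547/2048) * u ^ 4 + (1461/4096) * u ^ 5 := by
    simp only [S1]; ring
  rw [e]
  by_cases hc0 : u ≤ (0)
  · have hs : 0 ≤ u - (-1/2) := by linarith
    have ht : 0 ≤ (0) - u := by linarith
    have b := bern5 (14579/2560000) (6824987/1280000) (2744107/320000) (5307257/1280000) (91521/160000) (10051/320000) (u - (-1/2)) ((0) - u) (by norm_num) (by norm_num) (by norm_num) (by norm_num) (by norm_num) (by norm_num) hs ht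
    have key : (10051/10240000) * u ^ 0 + (-132787/5120000) * u ^ 1 + (4449/16384) * u ^ 2 + (1527/8192) * u ^ 3 + (-1547/2048) * u ^ 4 + (1461/4096) * u ^ 5 =
        (14579/2560000) * ((0) - u) ^ 5 + (6824987/1280000) * (u - (-1/2)) ^ 1 * ((0) - u) ^ 4 + (2744107/320000) * (u - (-1/2)) ^ 2 * ((0) - u) ^ 3 + (5307257/1280000) * (u - (-1/2)) ^ 3 * ((0) - u) ^ 2 + (91521/160000) * (u - (-1/2)) ^ 4 * ((0) - u) ^ 1 + (10051/320000) * (u - (-1/2)) ^ 5 := by ring
    rw [key]; exact b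
  by_cases hc1 : u ≤ (1/8)
  · have hs : 0 ≤ u - (0) := by linarith [not_le.1 hc0]
    have ht : 0 ≤ (1/8) - u := by linarith
    have b := bern5 (20102/625) (68233/1250) (714897/20000) (9062227/80000) (27329241/160000) (182293141/2560000) (u - (0)) ((1/8) - u) (by norm_num) (by norm_num) (by norm_num) (by norm_num) (by norm_num) (by norm_num) hs ht
    have key : (10051/10240000) * u ^ 0 + (-132787/5120000) * u ^ 1 + (4449/16384) * u ^ 2 + (1527/8192) * u ^ 3 + (-1547/2048) * u ^ 4 + (1461/4096) * u ^ 5 =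
        (20102/625) * ((1/8) - u) ^ 5 + (68233/1250) * (u - (0)) ^ 1 * ((1/8) - u) ^ 4 + (714897/20000) * (u - (0)) ^ 2 * ((1/8) - u) ^ 3 + (9062227/80000) * (u - (0)) ^ 3 * ((1/8) - u) ^ 2 + (27329241/160000) * (u - (0)) ^ 4 * ((1/8) - u) ^ 1 + (182293141/2560000) * (u - (0)) ^ 5 := by ring
    rw [key]; exact b
  by_cases hc2 : u ≤ (1/4)
  · have hs : 0 ≤ u - (1/8) := by linarith [not_le.1 hc1]
    have ht : 0 ≤ (1/4) - u := by linarith
    have b := bern5 (182293141/2560000) (692831777/1280000) (510446757/320000) (358591469/160000) (240280561/160000) (6175889/16000) (u - (1/8)) ((1/4) - u) (by norm_num) (by norm_num) (by norm_num) (by norm_num) (by norm_num) (by norm_num) hs ht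
    have key : (10051/10240000) * u ^ 0 + (-132787/5120000) * u ^ 1 + (4449/16384) * u ^ 2 + (1527/8192) * u ^ 3 + (-1547/2048) * u ^ 4 + (1461/4096) * u ^ 5 =
        (182293141/2560000) * ((1/4) - u) ^ 5 + (692831777/1280000) * (u - (1/8)) ^ 1 * ((1/4) - u) ^ 4 + (510446757/320000) * (u - (1/8)) ^ 2 * ((1/4) - u) ^ 3 + (358591469/160000) * (u - (1/8)) ^ 3 * ((1/4) - u) ^ 2 + (240280561/160000) * (u - (1/8)) ^ 4 * ((1/4) - u) ^ 1 + (6175889/16000) * (u - (1/8)) ^ 5 := by ring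
    rw [key]; exact b
  by_cases hc3 : u ≤ (1/2)
  · have hs : 0 ≤ u - (1/4) := by linarith [not_le.1 hc2]
    have ht : 0 ≤ (1/2) - u := by linarith
    have b := bern5 (6175889/512000) (111455557/1280000) (38310391/160000) (49753299/160000) (30455291/160000) (3533737/80000) (u - (1/4)) ((1/2) - u) (by norm_num) (by norm_num) (by norm_num) (by norm_num) (by norm_num) (by norm_num) hs ht
    have key : (10051/10240000) * u ^ 0 + (-132787/5120000) * u ^ 1 + (4449/16384) * u ^ 2 + (1527/8192) * u ^ 3 + (-1547/2048) * u ^ 4 + (1461/4096) * u ^ 5 =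
        (6175889/512000) * ((1/2) - u) ^ 5 + (111455557/1280000) * (u - (1/4)) ^ 1 * ((1/2) - u) ^ 4 + (38310391/160000) * (u - (1/4)) ^ 2 * ((1/2) - u) ^ 3 + (49753299/160000) * (u - (1/4)) ^ 3 * ((1/2) - u) ^ 2 + (30455291/160000) * (u - (1/4)) ^ 4 * ((1/2) - u) ^ 1 + (3533737/80000) * (u - (1/4)) ^ 5 := by ring
    rw [key]; exact b
  by_cases hc4 : u ≤ (1)
  · have hs : 0 ≤ u - (1/2) := by linarith [not_le.1 hc3]
    have ht : 0 ≤ (1) - u := by linarith
    have b := bern5 (3533737/2560000) (5637691/640000) (13019859/640000) (25920547/1280000) (2584547/320000) (43919/40000) (u - (1/2)) ((1) - u) (by norm_num) (by norm_num) (by norm_num) (by norm_num) (by norm_num) (by norm_num) hs ht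
    have key : (10051/10240000) * u ^ 0 + (-132787/5120000) * u ^ 1 + (4449/16384) * u ^ 2 + (1527/8192) * u ^ 3 + (-1547/2048) * u ^ 4 + (1461/4096) * u ^ 5 =
        (3533737/2560000) * ((1) - u) ^ 5 + (5637691/640000) * (u - (1/2)) ^ 1 * ((1) - u) ^ 4 + (13019859/640000) * (u - (1/2)) ^ 2 * ((1) - u) ^ 3 + (25920547/1280000) * (u - (1/2)) ^ 3 * ((1) - u) ^ 2 + (2584547/320000) * (u - (1/2)) ^ 4 * ((1) - u) ^ 1 + (43919/40000) * (u - (1/2)) ^ 5 := by ring
    rw [key]; exact b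
  by_cases hc5 : u ≤ (5/4)
  · have hs : 0 ≤ u - (1) := by linarith [not_le.1 hc4]
    have ht : 0 ≤ (5/4) - u := by linarith
    have b := bern5 (43919/1250) (2685733/20000) (28349011/160000) (28443213/320000) (7557779/640000) (3355001/2560000) (u - (1)) ((5/4) - u) (by norm_num) (by norm_num) (by norm_num) (by norm_num) (by norm_num) (by norm_num) hs ht
    have key : (10051/10240000) * u ^ 0 + (-132787/5120000) * u ^ 1 + (4449/16384) * u ^ 2 + (1527/8192) * u ^ 3 + (-1547/2048) * u ^ 4 + (1461/4096) * u ^ 5 =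
        (43919/1250) * ((5/4) - u) ^ 5 + (2685733/20000) * (u - (1)) ^ 1 * ((5/4) - u) ^ 4 + (28349011/160000) * (u - (1)) ^ 2 * ((5/4) - u) ^ 3 + (28443213/320000) * (u - (1)) ^ 3 * ((5/4) - u) ^ 2 + (7557779/640000) * (u - (1)) ^ 4 * ((5/4) - u) ^ 1 + (3355001/2560000) * (u - (1)) ^ 5 := by ring
    rw [key]; exact b
  have hs : 0 ≤ u - (5/4) := by linarith [not_le.1 hc5]
  have ht : 0 ≤ (3/2) - u := by linarith
  have b := bern5 (3355001/2560000) (1659447/1280000) (7493551/160000) (28408959/160000) (35061871/160000) (1420579/16000) (u - (5/4)) ((3/2) - u) (by norm_num) (by norm_num) (by norm_num) (by norm_num) (by norm_num) (by norm_num) hs ht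
  have key : (10051/10240000) * u ^ 0 + (-132787/5120000) * u ^ 1 + (4449/16384) * u ^ 2 + (1527/8192) * u ^ 3 + (-1547/2048) * u ^ 4 + (1461/4096) * u ^ 5 =
      (3355001/2560000) * ((3/2) - u) ^ 5 + (1659447/1280000) * (u - (5/4)) ^ 1 * ((3/2) - u) ^ 4 + (7493551/160000) * (u - (5/4)) ^ 2 * ((3/2) - u) ^ 3 + (28408959/160000) * (u - (5/4)) ^ 3 * ((3/2) - u) ^ 2 + (35061871/160000) * (u - (5/4)) ^ 4 * ((3/2) - u) ^ 1 + (1420579/16000) * (u - (5/4)) ^ 5 := by ring
  rw [key]; exact b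

private theorem a2p_nonneg (u : ℝ) (hl : -(1/2) ≤ u) (hr : u ≤ 3/2) :
    0 ≤ (137/1000) * (1 + u) ^ 2 + ((3 + 2 * u) - (1 + u) ^ 2 * S2 u) := by
  have e : (137/1000) * (1 + u) ^ 2 + ((3 + 2 * u) - (1 + u) ^ 2 * S2 u) =
      (277663/1024000) * u ^ 0 + (1393027/2048000) * u ^ 1 + (-3763799/2048000) * u ^ 2 + (-52957/16384) * u ^ 3 + (80063/16384) * u ^ 4 + (19209/8192) * u ^ 5 + (-20703/8192) * u ^ 6 := by
    simp only [S2]; ring
  rw [e]
  by_cases hc0 : u ≤ (-3/8)
  · have hs : 0 ≤ u - (-1/2) := by linarith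
    have ht : 0 ≤ (-3/8) - u := by linarith
    have b := bern6 (4475733/250) (8745851/125) (407739223/4000) (262828757/4000) (1021943703/64000) (2769409/12800) (3367813/40960) (u - (-1/2)) ((-3/8) - u) (by norm_num) (by norm_num) (by norm_num) (by norm_num) (by norm_num) (by norm_num) (by norm_num) hs ht
    have key : (277663/1024000) * u ^ 0 + (1393027/2048000) * u ^ 1 + (-3763799/2048000) * u ^ 2 + (-52957/16384) * u ^ 3 + (80063/16384) * u ^ 4 + (19209/8192) * u ^ 5 + (-20703/8192) * u ^ 6 =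
        (4475733/250) * ((-3/8) - u) ^ 6 + (8745851/125) * (u - (-1/2)) ^ 1 * ((-3/8) - u) ^ 5 + (407739223/4000) * (u - (-1/2)) ^ 2 * ((-3/8) - u) ^ 4 + (262828757/4000) * (u - (-1/2)) ^ 3 * ((-3/8) - u) ^ 3 + (1021943703/64000) * (u - (-1/2)) ^ 4 * ((-3/8) - u) ^ 2 + (2769409/12800) * (u - (-1/2)) ^ 5 * ((-3/8) - u) ^ 1 + (3367813/40960) * (u - (-1/2)) ^ 6 := by ring
    rw [key]; exact b
  by_cases hc1 : u ≤ (-1/4)
  · have hs : 0 ≤ u - (-3/8) := by linarith [not_le.1 hc0]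
    have ht : 0 ≤ (-1/4) - u := by linarith
    have b := bern6 (3367813/40960) (39439559/51200) (4796822887/256000) (2129180481/32000) (5974082043/64000) (939773003/16000) (222010177/16000) (u - (-3/8)) ((-1/4) - u) (by norm_num) (by norm_num) (by norm_num) (by norm_num) (by norm_num) (by norm_num) (by norm_num) hs ht
    have key : (277663/1024000) * u ^ 0 + (1393027/2048000) * u ^ 1 + (-3763799/2048000) * u ^ 2 + (-52957/16384) * u ^ 3 + (80063/16384) * u ^ 4 + (19209/8192) * u ^ 5 + (-20703/8192) * u ^ 6 =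
        (3367813/40960) * ((-1/4) - u) ^ 6 + (39439559/51200) * (u - (-3/8)) ^ 1 * ((-1/4) - u) ^ 5 + (4796822887/256000) * (u - (-3/8)) ^ 2 * ((-1/4) - u) ^ 4 + (2129180481/32000) * (u - (-3/8)) ^ 3 * ((-1/4) - u) ^ 3 + (5974082043/64000) * (u - (-3/8)) ^ 4 * ((-1/4) - u) ^ 2 + (939773003/16000) * (u - (-3/8)) ^ 5 * ((-1/4) - u) ^ 1 + (222010177/16000) * (u - (-3/8)) ^ 6 := by ring
    rw [key]; exact b
  by_cases hc2 : u ≤ (0)
  · have hs : 0 ≤ u - (-1/4) := by linarith [not_le.1 hc1]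
    have ht : 0 ≤ (0) - u := by linarith
    have b := bern6 (222010177/1024000) (105831859/51200) (969033231/128000) (434331801/32000) (101653901/8000) (11934797/2000) (277663/250) (u - (-1/4)) ((0) - u) (by norm_num) (by norm_num) (by norm_num) (by norm_num) (by norm_num) (by norm_num) (by norm_num) hs ht
    have key : (277663/1024000) * u ^ 0 + (1393027/2048000) * u ^ 1 + (-3763799/2048000) * u ^ 2 + (-52957/16384) * u ^ 3 + (80063/16384) * u ^ 4 + (19209/8192) * u ^ 5 + (-20703/8192) * u ^ 6 =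
        (222010177/1024000) * ((0) - u) ^ 6 + (105831859/51200) * (u - (-1/4)) ^ 1 * ((0) - u) ^ 5 + (969033231/128000) * (u - (-1/4)) ^ 2 * ((0) - u) ^ 4 + (434331801/32000) * (u - (-1/4)) ^ 3 * ((0) - u) ^ 3 + (101653901/8000) * (u - (-1/4)) ^ 4 * ((0) - u) ^ 2 + (11934797/2000) * (u - (-1/4)) ^ 5 * ((0) - u) ^ 1 + (277663/250) * (u - (-1/4)) ^ 6 := by ring
    rw [key]; exact b
  by_cases hc3 : u ≤ (1/2)
  · have hs : 0 ≤ u - (0) := by linarith [not_le.1 hc2]
    have ht : 0 ≤ (1/2) - u := by linarith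
    have b := bern6 (277663/16000) (8056939/64000) (43486031/128000) (107843223/256000) (124679349/512000) (31510717/512000) (5700097/1024000) (u - (0)) ((1/2) - u) (by norm_num) (by norm_num) (by norm_num) (by norm_num) (by norm_num) (by norm_num) (by norm_num) hs ht
    have key : (277663/1024000) * u ^ 0 + (1393027/2048000) * u ^ 1 + (-3763799/2048000) * u ^ 2 + (-52957/16384) * u ^ 3 + (80063/16384) * u ^ 4 + (19209/8192) * u ^ 5 + (-20703/8192) * u ^ 6 =
        (277663/16000) * ((1/2) - u) ^ 6 + (8056939/64000) * (u - (0)) ^ 1 * ((1/2) - u) ^ 5 + (43486031/128000) * (u - (0)) ^ 2 * ((1/2) - u) ^ 4 + (107843223/256000) * (u - (0)) ^ 3 * ((1/2) - u) ^ 3 + (124679349/512000) * (u - (0)) ^ 4 * ((1/2) - u) ^ 2 + (31510717/512000) * (u - (0)) ^ 5 * ((1/2) - u) ^ 1 + (5700097/1024000) * (u - (0)) ^ 6 := by ring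
    rw [key]; exact b
  by_cases hc4 : u ≤ (5/8)
  · have hs : 0 ≤ u - (1/2) := by linarith [not_le.1 hc3]
    have ht : 0 ≤ (5/8) - u := by linarith
    have b := bern6 (5700097/250) (26995369/250) (811359223/4000) (762671267/4000) (5942716443/64000) (350699441/16000) (2120030637/1024000) (u - (1/2)) ((5/8) - u) (by norm_num) (by norm_num) (by norm_num) (by norm_num) (by norm_num) (by norm_num) (by norm_num) hs ht
    have key : (277663/1024000) * u ^ 0 + (1393027/2048000) * u ^ 1 + (-3763799/2048000) * u ^ 2 + (-52957/16384) * u ^ 3 + (80063/16384) * u ^ 4 + (19209/8192) * u ^ 5 + (-20703/8192) * u ^ 6 =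
        (5700097/250) * ((5/8) - u) ^ 6 + (26995369/250) * (u - (1/2)) ^ 1 * ((5/8) - u) ^ 5 + (811359223/4000) * (u - (1/2)) ^ 2 * ((5/8) - u) ^ 4 + (762671267/4000) * (u - (1/2)) ^ 3 * ((5/8) - u) ^ 3 + (5942716443/64000) * (u - (1/2)) ^ 4 * ((5/8) - u) ^ 2 + (350699441/16000) * (u - (1/2)) ^ 5 * ((5/8) - u) ^ 1 + (2120030637/1024000) * (u - (1/2)) ^ 6 := by ring
    rw [key]; exact b
  by_cases hc5 : u ≤ (11/16)
  · have hs : 0 ≤ u - (5/8) := by linarith [not_le.1 hc4]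
    have ht : 0 ≤ (11/16) - u := by linarith
    have b := bern6 (2120030637/16000) (7857893621/16000) (44616135723/64000) (17636369131/32000) (100771252147/256000) (13398010913/51200) (82601493397/1024000) (u - (5/8)) ((11/16) - u) (by norm_num) (by norm_num) (by norm_num) (by norm_num) (by norm_num) (by norm_num) (by norm_num) hs ht
    have key : (277663/1024000) * u ^ 0 + (1393027/2048000) * u ^ 1 + (-3763799/2048000) * u ^ 2 + (-52957/16384) * u ^ 3 + (80063/16384) * u ^ 4 + (19209/8192) * u ^ 5 + (-20703/8192) * u ^ 6 =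
        (2120030637/16000) * ((11/16) - u) ^ 6 + (7857893621/16000) * (u - (5/8)) ^ 1 * ((11/16) - u) ^ 5 + (44616135723/64000) * (u - (5/8)) ^ 2 * ((11/16) - u) ^ 4 + (17636369131/32000) * (u - (5/8)) ^ 3 * ((11/16) - u) ^ 3 + (100771252147/256000) * (u - (5/8)) ^ 4 * ((11/16) - u) ^ 2 + (13398010913/51200) * (u - (5/8)) ^ 5 * ((11/16) - u) ^ 1 + (82601493397/1024000) * (u - (5/8)) ^ 6 := by ring
    rw [key]; exact b
  by_cases hc6 : u ≤ (3/4)
  · have hs : 0 ≤ u - (11/16) := by linarith [not_le.1 hc5]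
    have ht : 0 ≤ (3/4) - u := by linarith
    have b := bern6 (82601493397/1024000) (90407212813/128000) (167473276863/64000) (20149009647/4000) (21051783043/4000) (1416773093/500) (154180297/250) (u - (11/16)) ((3/4) - u) (by norm_num) (by norm_num) (by norm_num) (by norm_num) (by norm_num) (by norm_num) (by norm_num) hs ht
    have key : (277663/1024000) * u ^ 0 + (1393027/2048000) * u ^ 1 + (-3763799/2048000) * u ^ 2 + (-52957/16384) * u ^ 3 + (80063/16384) * u ^ 4 + (19209/8192) * u ^ 5 + (-20703/8192) * u ^ 6 =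
        (82601493397/1024000) * ((3/4) - u) ^ 6 + (90407212813/128000) * (u - (11/16)) ^ 1 * ((3/4) - u) ^ 5 + (167473276863/64000) * (u - (11/16)) ^ 2 * ((3/4) - u) ^ 4 + (20149009647/4000) * (u - (11/16)) ^ 3 * ((3/4) - u) ^ 3 + (21051783043/4000) * (u - (11/16)) ^ 4 * ((3/4) - u) ^ 2 + (1416773093/500) * (u - (11/16)) ^ 5 * ((3/4) - u) ^ 1 + (154180297/250) * (u - (11/16)) ^ 6 := by ring
    rw [key]; exact b
  by_cases hc7 : u ≤ (1)
  · have hs : 0 ≤ u - (3/4) := by linarith [not_le.1 hc6]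
    have ht : 0 ≤ (1) - u := by linarith
    have b := bern6 (154180297/1024000) (447965681/256000) (1003842471/128000) (546994321/32000) (77373853/4000) (5447123/500) (299826/125) (u - (3/4)) ((1) - u) (by norm_num) (by norm_num) (by norm_num) (by norm_num) (by norm_num) (by norm_num) (by norm_num) hs ht
    have key : (277663/1024000) * u ^ 0 + (1393027/2048000) * u ^ 1 + (-3763799/2048000) * u ^ 2 + (-52957/16384) * u ^ 3 + (80063/16384) * u ^ 4 + (19209/8192) * u ^ 5 + (-20703/8192) * u ^ 6 =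
        (154180297/1024000) * ((1) - u) ^ 6 + (447965681/256000) * (u - (3/4)) ^ 1 * ((1) - u) ^ 5 + (1003842471/128000) * (u - (3/4)) ^ 2 * ((1) - u) ^ 4 + (546994321/32000) * (u - (3/4)) ^ 3 * ((1) - u) ^ 3 + (77373853/4000) * (u - (3/4)) ^ 4 * ((1) - u) ^ 2 + (5447123/500) * (u - (3/4)) ^ 5 * ((1) - u) ^ 1 + (299826/125) * (u - (3/4)) ^ 6 := by ring
    rw [key]; exact b
  have hs : 0 ≤ u - (1) := by linarith [not_le.1 hc7]
  have ht : 0 ≤ (3/2) - u := by linarith
  have b := bern6 (149913/4000) (5346613/16000) (74358553/64000) (504086783/256000) (834776229/512000) (54210887/102400) (15373/40960) (u - (1)) ((3/2) - u) (by norm_num) (by norm_num) (by norm_num) (by norm_num) (by norm_num) (by norm_num) (by norm_num) hs ht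
  have key : (277663/1024000) * u ^ 0 + (1393027/2048000) * u ^ 1 + (-3763799/2048000) * u ^ 2 + (-52957/16384) * u ^ 3 + (80063/16384) * u ^ 4 + (19209/8192) * u ^ 5 + (-20703/8192) * u ^ 6 =
      (149913/4000) * ((3/2) - u) ^ 6 + (5346613/16000) * (u - (1)) ^ 1 * ((3/2) - u) ^ 5 + (74358553/64000) * (u - (1)) ^ 2 * ((3/2) - u) ^ 4 + (504086783/256000) * (u - (1)) ^ 3 * ((3/2) - u) ^ 3 + (834776229/512000) * (u - (1)) ^ 4 * ((3/2) - u) ^ 2 + (54210887/102400) * (u - (1)) ^ 5 * ((3/2) - u) ^ 1 + (15373/40960) * (u - (1)) ^ 6 := by ring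
  rw [key]; exact b

private theorem a2m_nonneg (u : ℝ) (hl : -(1/2) ≤ u) (hr : u ≤ 3/2) :
    0 ≤ (137/1000) * (1 + u) ^ 2 - ((3 + 2 * u) - (1 + u) ^ 2 * S2 u) := by
  have e : (137/1000) * (1 + u) ^ 2 - ((3 + 2 * u) - (1 + u) ^ 2 * S2 u) =
      (2913/1024000) * u ^ 0 + (-270723/2048000) * u ^ 1 + (4324951/2048000) * u ^ 2 + (52957/16384) * u ^ 3 + (-80063/16384) * u ^ 4 + (-19209/8192) * u ^ 5 + (20703/8192) * u ^ 6 := by
    simp only [S2]; ring
  rw [e]
  by_cases hc0 : u ≤ (0)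
  · have hs : 0 ≤ u - (-1/2) := by linarith
    have ht : 0 ≤ (0) - u := by linarith
    have b := bern6 (13483/1024000) (23255057/512000) (77129279/512000) (39741063/256000) (7381741/128000) (68127/12800) (2913/16000) (u - (-1/2)) ((0) - u) (by norm_num) (by norm_num) (by norm_num) (by norm_num) (by norm_num) (by norm_num) (by norm_num) hs ht
    have key : (2913/1024000) * u ^ 0 + (-270723/2048000) * u ^ 1 + (4324951/2048000) * u ^ 2 + (52957/16384) * u ^ 3 + (-80063/16384) * u ^ 4 + (-19209/8192) * u ^ 5 + (20703/8192) * u ^ 6 =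
        (13483/1024000) * ((0) - u) ^ 6 + (23255057/512000) * (u - (-1/2)) ^ 1 * ((0) - u) ^ 5 + (77129279/512000) * (u - (-1/2)) ^ 2 * ((0) - u) ^ 4 + (39741063/256000) * (u - (-1/2)) ^ 3 * ((0) - u) ^ 3 + (7381741/128000) * (u - (-1/2)) ^ 4 * ((0) - u) ^ 2 + (68127/12800) * (u - (-1/2)) ^ 5 * ((0) - u) ^ 1 + (2913/16000) * (u - (-1/2)) ^ 6 := by ring
    rw [key]; exact b
  by_cases hc1 : u ≤ (1/16)
  · have hs : 0 ≤ u - (0) := by linarith [not_le.1 hc0]
    have ht : 0 ≤ (1/16) - u := by linarith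
    have b := bern6 (5965824/125) (18468672/125) (20155804/125) (67631529/500) (1589235821/8000) (471246499/2560) (60895358227/1024000) (u - (0)) ((1/16) - u) (by norm_num) (by norm_num) (by norm_num) (by norm_num) (by norm_num) (by norm_num) (by norm_num) hs ht
    have key : (2913/1024000) * u ^ 0 + (-270723/2048000) * u ^ 1 + (4324951/2048000) * u ^ 2 + (52957/16384) * u ^ 3 + (-80063/16384) * u ^ 4 + (-19209/8192) * u ^ 5 + (20703/8192) * u ^ 6 =
        (5965824/125) * ((1/16) - u) ^ 6 + (18468672/125) * (u - (0)) ^ 1 * ((1/16) - u) ^ 5 + (20155804/125) * (u - (0)) ^ 2 * ((1/16) - u) ^ 4 + (67631529/500) * (u - (0)) ^ 3 * ((1/16) - u) ^ 3 + (1589235821/8000) * (u - (0)) ^ 4 * ((1/16) - u) ^ 2 + (471246499/2560) * (u - (0)) ^ 5 * ((1/16) - u) ^ 1 + (60895358227/1024000) * (u - (0)) ^ 6 := by ring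
    rw [key]; exact b
  by_cases hc2 : u ≤ (1/8)
  · have hs : 0 ≤ u - (1/16) := by linarith [not_le.1 hc1]
    have ht : 0 ≤ (1/8) - u := by linarith
    have b := bern6 (60895358227/1024000) (135561424781/256000) (493039420677/256000) (115380670051/32000) (234449410413/64000) (30759192221/16000) (6543350363/16000) (u - (1/16)) ((1/8) - u) (by norm_num) (by norm_num) (by norm_num) (by norm_num) (by norm_num) (by norm_num) (by norm_num) hs ht
    have key : (2913/1024000) * u ^ 0 + (-270723/2048000) * u ^ 1 + (4324951/2048000) * u ^ 2 + (52957/16384) * u ^ 3 + (-80063/16384) * u ^ 4 + (-19209/8192) * u ^ 5 + (20703/8192) * u ^ 6 =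
        (60895358227/1024000) * ((1/8) - u) ^ 6 + (135561424781/256000) * (u - (1/16)) ^ 1 * ((1/8) - u) ^ 5 + (493039420677/256000) * (u - (1/16)) ^ 2 * ((1/8) - u) ^ 4 + (115380670051/32000) * (u - (1/16)) ^ 3 * ((1/8) - u) ^ 3 + (234449410413/64000) * (u - (1/16)) ^ 4 * ((1/8) - u) ^ 2 + (30759192221/16000) * (u - (1/16)) ^ 5 * ((1/8) - u) ^ 1 + (6543350363/16000) * (u - (1/16)) ^ 6 := by ring
    rw [key]; exact b
  by_cases hc3 : u ≤ (1/4)
  · have hs : 0 ≤ u - (1/8) := by linarith [not_le.1 hc2]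
    have ht : 0 ≤ (1/4) - u := by linarith
    have b := bern6 (6543350363/1024000) (14065480523/256000) (48756485697/256000) (10894526281/32000) (21238147053/64000) (536864887/3200) (22066543/640) (u - (1/8)) ((1/4) - u) (by norm_num) (by norm_num) (by norm_num) (by norm_num) (by norm_num) (by norm_num) (by norm_num) hs ht
    have key : (2913/1024000) * u ^ 0 + (-270723/2048000) * u ^ 1 + (4324951/2048000) * u ^ 2 + (52957/16384) * u ^ 3 + (-80063/16384) * u ^ 4 + (-19209/8192) * u ^ 5 + (20703/8192) * u ^ 6 =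
        (6543350363/1024000) * ((1/4) - u) ^ 6 + (14065480523/256000) * (u - (1/8)) ^ 1 * ((1/4) - u) ^ 5 + (48756485697/256000) * (u - (1/8)) ^ 2 * ((1/4) - u) ^ 4 + (10894526281/32000) * (u - (1/8)) ^ 3 * ((1/4) - u) ^ 3 + (21238147053/64000) * (u - (1/8)) ^ 4 * ((1/4) - u) ^ 2 + (536864887/3200) * (u - (1/8)) ^ 5 * ((1/4) - u) ^ 1 + (22066543/640) * (u - (1/8)) ^ 6 := by ring
    rw [key]; exact b
  by_cases hc4 : u ≤ (1/2)
  · have hs : 0 ≤ u - (1/4) := by linarith [not_le.1 hc3]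
    have ht : 0 ≤ (1/2) - u := by linarith
    have b := bern6 (22066543/40960) (114032387/25600) (3795749157/256000) (812487241/32000) (1509345573/64000) (2817797/250) (34702847/16000) (u - (1/4)) ((1/2) - u) (by norm_num) (by norm_num) (by norm_num) (by norm_num) (by norm_num) (by norm_num) (by norm_num) hs ht
    have key : (2913/1024000) * u ^ 0 + (-270723/2048000) * u ^ 1 + (4324951/2048000) * u ^ 2 + (52957/16384) * u ^ 3 + (-80063/16384) * u ^ 4 + (-19209/8192) * u ^ 5 + (20703/8192) * u ^ 6 =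
        (22066543/40960) * ((1/2) - u) ^ 6 + (114032387/25600) * (u - (1/4)) ^ 1 * ((1/2) - u) ^ 5 + (3795749157/256000) * (u - (1/4)) ^ 2 * ((1/2) - u) ^ 4 + (812487241/32000) * (u - (1/4)) ^ 3 * ((1/2) - u) ^ 3 + (1509345573/64000) * (u - (1/4)) ^ 4 * ((1/2) - u) ^ 2 + (2817797/250) * (u - (1/4)) ^ 5 * ((1/2) - u) ^ 1 + (34702847/16000) * (u - (1/4)) ^ 6 := by ring
    rw [key]; exact b
  by_cases hc5 : u ≤ (1)
  · have hs : 0 ≤ u - (1/2) := by linarith [not_le.1 hc4]
    have ht : 0 ≤ (1) - u := by linarith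
    have b := bern6 (34702847/1024000) (26397323/102400) (392029839/512000) (285178463/256000) (51985263/64000) (4323461/16000) (130663/4000) (u - (1/2)) ((1) - u) (by norm_num) (by norm_num) (by norm_num) (by norm_num) (by norm_num) (by norm_num) (by norm_num) hs ht
    have key : (2913/1024000) * u ^ 0 + (-270723/2048000) * u ^ 1 + (4324951/2048000) * u ^ 2 + (52957/16384) * u ^ 3 + (-80063/16384) * u ^ 4 + (-19209/8192) * u ^ 5 + (20703/8192) * u ^ 6 =
        (34702847/1024000) * ((1) - u) ^ 6 + (26397323/102400) * (u - (1/2)) ^ 1 * ((1) - u) ^ 5 + (392029839/512000) * (u - (1/2)) ^ 2 * ((1) - u) ^ 4 + (285178463/256000) * (u - (1/2)) ^ 3 * ((1) - u) ^ 3 + (51985263/64000) * (u - (1/2)) ^ 4 * ((1) - u) ^ 2 + (4323461/16000) * (u - (1/2)) ^ 5 * ((1) - u) ^ 1 + (130663/4000) * (u - (1/2)) ^ 6 := by ring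
    rw [key]; exact b
  by_cases hc6 : u ≤ (5/4)
  · have hs : 0 ≤ u - (1) := by linarith [not_le.1 hc5]
    have ht : 0 ≤ (5/4) - u := by linarith
    have b := bern6 (261326/125) (203371/20) (74809683/4000) (500043601/32000) (682457841/128000) (88619801/256000) (19333343/1024000) (u - (1)) ((5/4) - u) (by norm_num) (by norm_num) (by norm_num) (by norm_num) (by norm_num) (by norm_num) (by norm_num) hs ht
    have key : (2913/1024000) * u ^ 0 + (-270723/2048000) * u ^ 1 + (4324951/2048000) * u ^ 2 + (52957/16384) * u ^ 3 + (-80063/16384) * u ^ 4 + (-19209/8192) * u ^ 5 + (20703/8192) * u ^ 6 =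
        (261326/125) * ((5/4) - u) ^ 6 + (203371/20) * (u - (1)) ^ 1 * ((5/4) - u) ^ 5 + (74809683/4000) * (u - (1)) ^ 2 * ((5/4) - u) ^ 4 + (500043601/32000) * (u - (1)) ^ 3 * ((5/4) - u) ^ 3 + (682457841/128000) * (u - (1)) ^ 4 * ((5/4) - u) ^ 2 + (88619801/256000) * (u - (1)) ^ 5 * ((5/4) - u) ^ 1 + (19333343/1024000) * (u - (1)) ^ 6 := by ring
    rw [key]; exact b
  by_cases hc7 : u ≤ (21/16)
  · have hs : 0 ≤ u - (5/4) := by linarith [not_le.1 hc6]
    have ht : 0 ≤ (21/16) - u := by linarith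
    have b := bern6 (19333343/250) (112760543/500) (3847686253/4000) (13226353957/4000) (336230845193/64000) (96557958363/25600) (1035310550667/1024000) (u - (5/4)) ((21/16) - u) (by norm_num) (by norm_num) (by norm_num) (by norm_num) (by norm_num) (by norm_num) (by norm_num) hs ht
    have key : (2913/1024000) * u ^ 0 + (-270723/2048000) * u ^ 1 + (4324951/2048000) * u ^ 2 + (52957/16384) * u ^ 3 + (-80063/16384) * u ^ 4 + (-19209/8192) * u ^ 5 + (20703/8192) * u ^ 6 =
        (19333343/250) * ((21/16) - u) ^ 6 + (112760543/500) * (u - (5/4)) ^ 1 * ((21/16) - u) ^ 5 + (3847686253/4000) * (u - (5/4)) ^ 2 * ((21/16) - u) ^ 4 + (13226353957/4000) * (u - (5/4)) ^ 3 * ((21/16) - u) ^ 3 + (336230845193/64000) * (u - (5/4)) ^ 4 * ((21/16) - u) ^ 2 + (96557958363/25600) * (u - (5/4)) ^ 5 * ((21/16) - u) ^ 1 + (1035310550667/1024000) * (u - (5/4)) ^ 6 := by ring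
    rw [key]; exact b
  by_cases hc8 : u ≤ (11/8)
  · have hs : 0 ≤ u - (21/16) := by linarith [not_le.1 hc7]
    have ht : 0 ≤ (11/8) - u := by linarith
    have b := bern6 (1035310550667/1024000) (2140352068371/256000) (7218785804477/256000) (1587767384301/32000) (3079439872213/64000) (390970148131/16000) (81415076803/16000) (u - (21/16)) ((11/8) - u) (by norm_num) (by norm_num) (by norm_num) (by norm_num) (by norm_num) (by norm_num) (by norm_num) hs ht
    have key : (2913/1024000) * u ^ 0 + (-270723/2048000) * u ^ 1 + (4324951/2048000) * u ^ 2 + (52957/16384) * u ^ 3 + (-80063/16384) * u ^ 4 + (-19209/8192) * u ^ 5 + (20703/8192) * u ^ 6 =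
        (1035310550667/1024000) * ((11/8) - u) ^ 6 + (2140352068371/256000) * (u - (21/16)) ^ 1 * ((11/8) - u) ^ 5 + (7218785804477/256000) * (u - (21/16)) ^ 2 * ((11/8) - u) ^ 4 + (1587767384301/32000) * (u - (21/16)) ^ 3 * ((11/8) - u) ^ 3 + (3079439872213/64000) * (u - (21/16)) ^ 4 * ((11/8) - u) ^ 2 + (390970148131/16000) * (u - (21/16)) ^ 5 * ((11/8) - u) ^ 1 + (81415076803/16000) * (u - (21/16)) ^ 6 := by ring
    rw [key]; exact b
  have hs : 0 ≤ u - (11/8) := by linarith [not_le.1 hc8]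
  have ht : 0 ≤ (3/2) - u := by linarith
  have b := bern6 (81415076803/1024000) (42720692887/64000) (146335674793/64000) (16373920857/4000) (16188872633/4000) (52490268/25) (4473843/10) (u - (11/8)) ((3/2) - u) (by norm_num) (by norm_num) (by norm_num) (by norm_num) (by norm_num) (by norm_num) (by norm_num) hs ht
  have key : (2913/1024000) * u ^ 0 + (-270723/2048000) * u ^ 1 + (4324951/2048000) * u ^ 2 + (52957/16384) * u ^ 3 + (-80063/16384) * u ^ 4 + (-19209/8192) * u ^ 5 + (20703/8192) * u ^ 6 =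
      (81415076803/1024000) * ((3/2) - u) ^ 6 + (42720692887/64000) * (u - (11/8)) ^ 1 * ((3/2) - u) ^ 5 + (146335674793/64000) * (u - (11/8)) ^ 2 * ((3/2) - u) ^ 4 + (16373920857/4000) * (u - (11/8)) ^ 3 * ((3/2) - u) ^ 3 + (16188872633/4000) * (u - (11/8)) ^ 4 * ((3/2) - u) ^ 2 + (52490268/25) * (u - (11/8)) ^ 5 * ((3/2) - u) ^ 1 + (4473843/10) * (u - (11/8)) ^ 6 := by ring
  rw [key]; exact b

private theorem a3p_nonneg (u : ℝ) (hl : -(1/2) ≤ u) (hr : u ≤ 3/2) :
    0 ≤ (13793/5000) * (1 + u) ^ 3 + ((6 + 8 * u + 3 * u ^ 2) - (1 + u) ^ 3 * S3 u) := by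
  have e : (13793/5000) * (1 + u) ^ 3 + ((6 + 8 * u + 3 * u ^ 2) - (1 + u) ^ 3 * S3 u) =
      (3401391/2560000) * u ^ 0 + (125344817/10240000) * u ^ 1 + (337496067/10240000) * u ^ 2 + (181434939/10240000) * u ^ 3 + (-231339/16384) * u ^ 4 + (-22101/2048) * u ^ 5 := by
    simp only [S3]; ring
  rw [e]
  by_cases hc0 : u ≤ (-1/4)
  · have hs : 0 ≤ u - (-1/2) := by linarith
    have ht : 0 ≤ (-1/4) - u := by linarith
    have b := bern5 (112710503/160000) (25643427/10000) (250334447/80000) (863717069/640000) (251334273/2560000) (18192787/2560000) (u - (-1/2)) ((-1/4) - u) (by norm_num) (by norm_num) (by norm_num) (by norm_num) (by norm_num) (by norm_num) hs ht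
    have key : (3401391/2560000) * u ^ 0 + (125344817/10240000) * u ^ 1 + (337496067/10240000) * u ^ 2 + (181434939/10240000) * u ^ 3 + (-231339/16384) * u ^ 4 + (-22101/2048) * u ^ 5 =
        (112710503/160000) * ((-1/4) - u) ^ 5 + (25643427/10000) * (u - (-1/2)) ^ 1 * ((-1/4) - u) ^ 4 + (250334447/80000) * (u - (-1/2)) ^ 2 * ((-1/4) - u) ^ 3 + (863717069/640000) * (u - (-1/2)) ^ 3 * ((-1/4) - u) ^ 2 + (251334273/2560000) * (u - (-1/2)) ^ 4 * ((-1/4) - u) ^ 1 + (18192787/2560000) * (u - (-1/2)) ^ 5 := by ring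
    rw [key]; exact b
  by_cases hc1 : u ≤ (-1/8)
  · have hs : 0 ≤ u - (-1/4) := by linarith [not_le.1 hc0]
    have ht : 0 ≤ (-1/8) - u := by linarith
    have b := bern5 (18192787/80000) (5389383/40000) (207620783/32000) (1802889241/80000) (32005924191/1280000) (5784669433/640000) (u - (-1/4)) ((-1/8) - u) (by norm_num) (by norm_num) (by norm_num) (by norm_num) (by norm_num) (by norm_num) hs ht
    have key : (3401391/2560000) * u ^ 0 + (125344817/10240000) * u ^ 1 + (337496067/10240000) * u ^ 2 + (181434939/10240000) * u ^ 3 + (-231339/16384) * u ^ 4 + (-22101/2048) * u ^ 5 =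
        (18192787/80000) * ((-1/8) - u) ^ 5 + (5389383/40000) * (u - (-1/4)) ^ 1 * ((-1/8) - u) ^ 4 + (207620783/32000) * (u - (-1/4)) ^ 2 * ((-1/8) - u) ^ 3 + (1802889241/80000) * (u - (-1/4)) ^ 3 * ((-1/8) - u) ^ 2 + (32005924191/1280000) * (u - (-1/4)) ^ 4 * ((-1/8) - u) ^ 1 + (5784669433/640000) * (u - (-1/4)) ^ 5 := by ring
    rw [key]; exact b
  by_cases hc2 : u ≤ (0)
  · have hs : 0 ≤ u - (-1/8) := by linarith [not_le.1 hc1]
    have ht : 0 ≤ (0) - u := by linarith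
    have b := bern5 (5784669433/640000) (83687464469/1280000) (29446548621/160000) (5034022883/20000) (418877743/2500) (27211128/625) (u - (-1/8)) ((0) - u) (by norm_num) (by norm_num) (by norm_num) (by norm_num) (by norm_num) (by norm_num) hs ht
    have key : (3401391/2560000) * u ^ 0 + (125344817/10240000) * u ^ 1 + (337496067/10240000) * u ^ 2 + (181434939/10240000) * u ^ 3 + (-231339/16384) * u ^ 4 + (-22101/2048) * u ^ 5 =
        (5784669433/640000) * ((0) - u) ^ 5 + (83687464469/1280000) * (u - (-1/8)) ^ 1 * ((0) - u) ^ 4 + (29446548621/160000) * (u - (-1/8)) ^ 2 * ((0) - u) ^ 3 + (5034022883/20000) * (u - (-1/8)) ^ 3 * ((0) - u) ^ 2 + (418877743/2500) * (u - (-1/8)) ^ 4 * ((0) - u) ^ 1 + (27211128/625) * (u - (-1/8)) ^ 5 := by ring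
    rw [key]; exact b
  by_cases hc3 : u ≤ (1/2)
  · have hs : 0 ≤ u - (0) := by linarith [not_le.1 hc2]
    have ht : 0 ≤ (1/2) - u := by linarith
    have b := bern5 (3401391/80000) (261400457/640000) (1884477163/1280000) (6303132069/2560000) (9730584949/5120000) (2733462331/5120000) (u - (0)) ((1/2) - u) (by norm_num) (by norm_num) (by norm_num) (by norm_num) (by norm_num) (by norm_num) hs ht
    have key : (3401391/2560000) * u ^ 0 + (125344817/10240000) * u ^ 1 + (337496067/10240000) * u ^ 2 + (181434939/10240000) * u ^ 3 + (-231339/16384) * u ^ 4 + (-22101/2048) * u ^ 5 =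
        (3401391/80000) * ((1/2) - u) ^ 5 + (261400457/640000) * (u - (0)) ^ 1 * ((1/2) - u) ^ 4 + (1884477163/1280000) * (u - (0)) ^ 2 * ((1/2) - u) ^ 3 + (6303132069/2560000) * (u - (0)) ^ 3 * ((1/2) - u) ^ 2 + (9730584949/5120000) * (u - (0)) ^ 4 * ((1/2) - u) ^ 1 + (2733462331/5120000) * (u - (0)) ^ 5 := by ring
    rw [key]; exact b
  have hs : 0 ≤ u - (1/2) := by linarith [not_le.1 hc3]
  have ht : 0 ≤ (3/2) - u := by linarith
  have b := bern5 (2733462331/163840000) (21540765067/163840000) (31451313783/81920000) (8065389463/16384000) (1534482607/6553600) (283323/1310720) (u - (1/2)) ((3/2) - u) (by norm_num) (by norm_num) (by norm_num) (by norm_num) (by norm_num) (by norm_num) hs ht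
  have key : (3401391/2560000) * u ^ 0 + (125344817/10240000) * u ^ 1 + (337496067/10240000) * u ^ 2 + (181434939/10240000) * u ^ 3 + (-231339/16384) * u ^ 4 + (-22101/2048) * u ^ 5 =
      (2733462331/163840000) * ((3/2) - u) ^ 5 + (21540765067/163840000) * (u - (1/2)) ^ 1 * ((3/2) - u) ^ 4 + (31451313783/81920000) * (u - (1/2)) ^ 2 * ((3/2) - u) ^ 3 + (8065389463/16384000) * (u - (1/2)) ^ 3 * ((3/2) - u) ^ 2 + (1534482607/6553600) * (u - (1/2)) ^ 4 * ((3/2) - u) ^ 1 + (283323/1310720) * (u - (1/2)) ^ 5 := by ring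
  rw [key]; exact b

private theorem a3m_nonneg (u : ℝ) (hl : -(1/2) ≤ u) (hr : u ≤ 3/2) :
    0 ≤ (13793/5000) * (1 + u) ^ 3 - ((6 + 8 * u + 3 * u ^ 2) - (1 + u) ^ 3 * S3 u) := by
  have e : (13793/5000) * (1 + u) ^ 3 - ((6 + 8 * u + 3 * u ^ 2) - (1 + u) ^ 3 * S3 u) =
      (10722641/2560000) * u ^ 0 + (44143567/10240000) * u ^ 1 + (-168007683/10240000) * u ^ 2 + (-124938811/10240000) * u ^ 3 + (231339/16384) * u ^ 4 + (22101/2048) * u ^ 5 := by
    simp only [S3]; ring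
  rw [e]
  by_cases hc0 : u ≤ (1/2)
  · have hs : 0 ≤ u - (-1/2) := by linarith
    have ht : 0 ≤ (1/2) - u := by linarith
    have b := bern5 (281753/163840000) (1292393033/163840000) (3368574069/81920000) (1025430277/16384000) (3358514493/163840000) (317328581/163840000) (u - (-1/2)) ((1/2) - u) (by norm_num) (by norm_num) (by norm_num) (by norm_num) (by norm_num) (by norm_num) hs ht
    have key : (10722641/2560000) * u ^ 0 + (44143567/10240000) * u ^ 1 + (-168007683/10240000) * u ^ 2 + (-124938811/10240000) * u ^ 3 + (231339/16384) * u ^ 4 + (22101/2048) * u ^ 5 =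
        (281753/163840000) * ((1/2) - u) ^ 5 + (1292393033/163840000) * (u - (-1/2)) ^ 1 * ((1/2) - u) ^ 4 + (3368574069/81920000) * (u - (-1/2)) ^ 2 * ((1/2) - u) ^ 3 + (1025430277/16384000) * (u - (-1/2)) ^ 3 * ((1/2) - u) ^ 2 + (3358514493/163840000) * (u - (-1/2)) ^ 4 * ((1/2) - u) ^ 1 + (317328581/163840000) * (u - (-1/2)) ^ 5 := by ring
    rw [key]; exact b
  by_cases hc1 : u ≤ (3/4)
  · have hs : 0 ≤ u - (1/2) := by linarith [not_le.1 hc0]
    have ht : 0 ≤ (3/4) - u := by linarith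
    have b := bern5 (317328581/160000) (8934961/1250) (280201977/32000) (2497559107/640000) (961761783/2560000) (193766933/2560000) (u - (1/2)) ((3/4) - u) (by norm_num) (by norm_num) (by norm_num) (by norm_num) (by norm_num) (by norm_num) hs ht
    have key : (10722641/2560000) * u ^ 0 + (44143567/10240000) * u ^ 1 + (-168007683/10240000) * u ^ 2 + (-124938811/10240000) * u ^ 3 + (231339/16384) * u ^ 4 + (22101/2048) * u ^ 5 =
        (317328581/160000) * ((3/4) - u) ^ 5 + (8934961/1250) * (u - (1/2)) ^ 1 * ((3/4) - u) ^ 4 + (280201977/32000) * (u - (1/2)) ^ 2 * ((3/4) - u) ^ 3 + (2497559107/640000) * (u - (1/2)) ^ 3 * ((3/4) - u) ^ 2 + (961761783/2560000) * (u - (1/2)) ^ 4 * ((3/4) - u) ^ 1 + (193766933/2560000) * (u - (1/2)) ^ 5 := by ring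
    rw [key]; exact b
  by_cases hc2 : u ≤ (1)
  · have hs : 0 ≤ u - (3/4) := by linarith [not_le.1 hc1]
    have ht : 0 ≤ (1) - u := by linarith
    have b := bern5 (193766933/2560000) (975907547/2560000) (2511704871/640000) (935760383/80000) (129851493/10000) (6147439/1250) (u - (3/4)) ((1) - u) (by norm_num) (by norm_num) (by norm_num) (by norm_num) (by norm_num) (by norm_num) hs ht
    have key : (10722641/2560000) * u ^ 0 + (44143567/10240000) * u ^ 1 + (-168007683/10240000) * u ^ 2 + (-124938811/10240000) * u ^ 3 + (231339/16384) * u ^ 4 + (22101/2048) * u ^ 5 =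
        (193766933/2560000) * ((1) - u) ^ 5 + (975907547/2560000) * (u - (3/4)) ^ 1 * ((1) - u) ^ 4 + (2511704871/640000) * (u - (3/4)) ^ 2 * ((1) - u) ^ 3 + (935760383/80000) * (u - (3/4)) ^ 3 * ((1) - u) ^ 2 + (129851493/10000) * (u - (3/4)) ^ 4 * ((1) - u) ^ 1 + (6147439/1250) * (u - (3/4)) ^ 5 := by ring
    rw [key]; exact b
  have hs : 0 ≤ u - (1) := by linarith [not_le.1 hc2]
  have ht : 0 ≤ (3/2) - u := by linarith
  have b := bern5 (6147439/40000) (238994847/160000) (3555200879/640000) (5042344977/512000) (1715046791/204800) (112708933/40960) (u - (1)) ((3/2) - u) (by norm_num) (by norm_num) (by norm_num) (by norm_num) (by norm_num) (by norm_num) hs ht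
  have key : (10722641/2560000) * u ^ 0 + (44143567/10240000) * u ^ 1 + (-168007683/10240000) * u ^ 2 + (-124938811/10240000) * u ^ 3 + (231339/16384) * u ^ 4 + (22101/2048) * u ^ 5 =
      (6147439/40000) * ((3/2) - u) ^ 5 + (238994847/160000) * (u - (1)) ^ 1 * ((3/2) - u) ^ 4 + (3555200879/640000) * (u - (1)) ^ 2 * ((3/2) - u) ^ 3 + (5042344977/512000) * (u - (1)) ^ 3 * ((3/2) - u) ^ 2 + (1715046791/204800) * (u - (1)) ^ 4 * ((3/2) - u) ^ 1 + (112708933/40960) * (u - (1)) ^ 5 := by ring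
  rw [key]; exact b

theorem apx1 (u : ℝ) (h1 : -Lam ≤ u) (h2 : u ≤ 3 * Lam) : |(1 + u)⁻¹ - R1 u| ≤ eta1 * u ^ 2 := by
  simp only [Lam] at h1 h2
  have hl : -(1/2) ≤ u := by linarith
  have hr : u ≤ 3/2 := by linarith
  have hD : 0 < 1 + u := by linarith
  have hne : 1 + u ≠ 0 := hD.ne'
  have p := a1p_nonneg u hl hr
  have m := a1m_nonneg u hl hr
  have hS : |(1 + u)⁻¹ - S1 u| ≤ 87/5000 := by
    have e : (1 + u)⁻¹ - S1 u = (1 + u)⁻¹ * (1 - (1 + u) * S1 u) := by
      field_simp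
    have hi : 0 < (1 + u)⁻¹ := inv_pos.2 hD
    rw [e, abs_mul, abs_of_pos hi, inv_mul_le_iff₀ hD, abs_le]
    constructor <;> linarith
  have e2 : (1 + u)⁻¹ - R1 u = u ^ 2 * ((1 + u)⁻¹ - S1 u) := by
    simp only [R1]; field_simp; ring
  rw [e2, abs_mul, abs_of_nonneg (sq_nonneg u), mul_comm]
  exact mul_le_mul_of_nonneg_right hS (sq_nonneg u)

theorem apx2 (u : ℝ) (h1 : -Lam ≤ u) (h2 : u ≤ 3 * Lam) : |((1 + u)⁻¹) ^ 2 - R2 u| ≤ eta2 * u ^ 2 := by
  simp only [Lam] at h1 h2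
  have hl : -(1/2) ≤ u := by linarith
  have hr : u ≤ 3/2 := by linarith
  have hD : 0 < 1 + u := by linarith
  have hne : 1 + u ≠ 0 := hD.ne'
  have p := a2p_nonneg u hl hr
  have m := a2m_nonneg u hl hr
  have hS : |(3 + 2 * u) * ((1 + u)⁻¹) ^ 2 - S2 u| ≤ 137/1000 := by
    have e : (3 + 2 * u) * ((1 + u)⁻¹) ^ 2 - S2 u
        = ((1 + u) ^ 2)⁻¹ * ((3 + 2 * u) - (1 + u) ^ 2 * S2 u) := by
      field_simp
    have hD2 : 0 < (1 + u) ^ 2 := by positivity
    have hi : 0 < ((1 + u) ^ 2)⁻¹ := inv_pos.2 hD2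
    rw [e, abs_mul, abs_of_pos hi, inv_mul_le_iff₀ hD2, abs_le]
    constructor <;> linarith
  have e2 : ((1 + u)⁻¹) ^ 2 - R2 u = u ^ 2 * ((3 + 2 * u) * ((1 + u)⁻¹) ^ 2 - S2 u) := by
    simp only [R2]; field_simp; ring
  rw [e2, abs_mul, abs_of_nonneg (sq_nonneg u), mul_comm]
  exact mul_le_mul_of_nonneg_right hS (sq_nonneg u)

theorem apx3 (u : ℝ) (h1 : -Lam ≤ u) (h2 : u ≤ 3 * Lam) : |((1 + u)⁻¹) ^ 3 - R3 u| ≤ eta3 * u ^ 2 := by
  simp only [Lam] at h1 h2
  have hl : -(1/2) ≤ u := by linarith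
  have hr : u ≤ 3/2 := by linarith
  have hD : 0 < 1 + u := by linarith
  have hne : 1 + u ≠ 0 := hD.ne'
  have p := a3p_nonneg u hl hr
  have m := a3m_nonneg u hl hr
  have hS : |(6 + 8 * u + 3 * u ^ 2) * ((1 + u)⁻¹) ^ 3 - S3 u| ≤ 13793/5000 := by
    have e : (6 + 8 * u + 3 * u ^ 2) * ((1 + u)⁻¹) ^ 3 - S3 u
        = ((1 + u) ^ 3)⁻¹ * ((6 + 8 * u + 3 * u ^ 2) - (1 + u) ^ 3 * S3 u) := by
      field_simp
    have hD2 : 0 < (1 + u) ^ 3 := by positivity
    have hi : 0 < ((1 + u) ^ 3)⁻¹ := inv_pos.2 hD2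
    rw [e, abs_mul, abs_of_pos hi, inv_mul_le_iff₀ hD2, abs_le]
    constructor <;> linarith
  have e2 : ((1 + u)⁻¹) ^ 3 - R3 u
      = u ^ 2 * ((6 + 8 * u + 3 * u ^ 2) * ((1 + u)⁻¹) ^ 3 - S3 u) := by
    simp only [R3]; field_simp; ring
  rw [e2, abs_mul, abs_of_nonneg (sq_nonneg u), mul_comm]
  exact mul_le_mul_of_nonneg_right hS (sq_nonneg u)

end Vale.Agent.P154q4.D4
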